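import Vale.Agent.P125.P57.Qb
import Vale.Agent.P125.P57.Scalar

set_option linter.unusedSectionVars false
set_option linter.unusedVariables false

/-!
# P125, polynomial rate: the bound on `Q` and the master theorem
-/

namespace Vale.Agent.P125.P57

open scoped BigOperators
open Vale.Agent.P125.Dich

variable {S : Type} [Fintype S] [DecidableEq S]

lemma cs_bound {μ : S → ℝ} {P : Matrix S S ℝ} (hc : IsChain μ P) (g h : S → ℝ) (A B C : ℝ)
    (hA : ip μ g g ≤ A) (hB : ip μ h h ≤ B) (hC : 0 ≤ C) (hAB : A * B ≤ C ^ 2) :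
    ip μ g h ≤ C := by
  have h1 := ip_sq_le hc g h
  have h2 : ip μ g g * ip μ h h ≤ A * B :=
    mul_le_mul hA hB (ip_self_nonneg hc h) ((ip_self_nonneg hc g).trans hA)
  exact le_of_pow_le_pow_left₀ (by norm_num) hC (h1.trans (h2.trans hAB))

theorem Qb {μ : S → ℝ} {P : Matrix S S ℝ} (hc : IsChain μ P) (n : ℕ) (fk : ℕ → S → ℝ)
    (τ m ρ : ℕ) :
    Qd μ P n fk (τ * m + ρ) ≤ (Real.sqrt (m : ℝ) * (τ : ℝ) + (ρ : ℝ)) * Wd μ P n fk
      + ∑ i ∈ Finset.range m, Rsd μ P n fk (τ * i) τ := by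
  set W := Wd μ P n fk with hW
  have hW0 : 0 ≤ W := Wd_nonneg hc n fk
  set Vs : S → ℝ := fun z => ∑ w, (P ^ τ) z w * ell n fk z w ^ 2 with hVs
  set SV : S → ℝ := fun y => ∑ i ∈ Finset.range m, op (P ^ (τ * i)) Vs y with hSV
  set SQ : S → ℝ := fun y => Real.sqrt (SV y) with hSQ
  set Bρ : S → ℝ := fun w => ∑ z, (P ^ ρ) w z * ell n fk w z with hB
  set T3 : S → ℝ := fun y => op (P ^ (τ * m)) Bρ y with hT3
  have hcR := isChain_pow hc τ
  have hVs0 : ∀ z, 0 ≤ Vs z := fun z =>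
    Finset.sum_nonneg fun w _ => mul_nonneg (hcR.2.2.1 z w) (sq_nonneg _)
  have hSV0 : ∀ y, 0 ≤ SV y := fun y =>
    Finset.sum_nonneg fun i _ => op_nonneg (isChain_pow hc (τ * i)) hVs0 y
  -- step a
  have ha : Qd μ P n fk (τ * m + ρ) ≤
      ∑ j ∈ Finset.range n, ∑ y, (μ y * al P fk j y * (SQ y + T3 y) +
        μ y * al P fk j y * ∑ i ∈ Finset.range m, op (P ^ (τ * i))
          (fun z => |∑ w, (P ^ τ) z w * Fp fk (j + 1) w - Fp fk (j + 1) z|) y) := by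
    unfold Qd
    refine Finset.sum_le_sum fun j hj => Finset.sum_le_sum fun y _ => ?_
    have hj' : j + 1 ≤ n := Finset.mem_range.1 hj
    have hp := point hc n fk τ m ρ j hj' y
    have hw : 0 ≤ μ y * al P fk j y := mul_nonneg (hc.1 y) (al_nonneg hc fk j y)
    have := mul_le_mul_of_nonneg_left hp hw
    refine this.trans (le_of_eq ?_)
    simp only [hSQ, hT3, hSV, hVs, hB]
    ring
  -- step b
  have hb : ∑ j ∈ Finset.range n, ∑ y, μ y * al P fk j y * (SQ y + T3 y)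
      = ip μ (lb P n fk) SQ + ip μ (lb P n fk) T3 := by
    rw [Finset.sum_comm]
    unfold ip
    rw [← Finset.sum_add_distrib]
    refine Finset.sum_congr rfl fun y _ => ?_
    rw [← sum_al, Finset.mul_sum, Finset.sum_mul, Finset.sum_mul, ← Finset.sum_add_distrib]
    refine Finset.sum_congr rfl fun j _ => ?_
    ring
  -- step c
  have hcc : ∑ j ∈ Finset.range n, ∑ y, μ y * al P fk j y * ∑ i ∈ Finset.range m,
      op (P ^ (τ * i)) (fun z => |∑ w, (P ^ τ) z w * Fp fk (j + 1) w - Fp fk (j + 1) z|) y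
      = ∑ i ∈ Finset.range m, Rsd μ P n fk (τ * i) τ := by
    unfold Rsd
    conv_rhs => rw [Finset.sum_comm]
    refine Finset.sum_congr rfl fun j _ => ?_
    conv_rhs => rw [Finset.sum_comm]
    refine Finset.sum_congr rfl fun y _ => ?_
    rw [Finset.mul_sum]
    rfl
  -- the two Cauchy-Schwarz bounds
  have hlb := ip_lb_le hc n fk
  have h1 : ip μ (lb P n fk) SQ ≤ Real.sqrt (m : ℝ) * (τ : ℝ) * W := by
    have e1 : ip μ SQ SQ ≤ (m : ℝ) * ((τ : ℝ) ^ 2 * W) := by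
      have e2 : ip μ SQ SQ = ∑ y, μ y * SV y := by
        unfold ip
        refine Finset.sum_congr rfl fun y _ => ?_
        show μ y * Real.sqrt (SV y) * Real.sqrt (SV y) = μ y * SV y
        rw [mul_assoc, Real.mul_self_sqrt (hSV0 y)]
      have e3 : ∑ y, μ y * SV y = ∑ i ∈ Finset.range m, ∑ y, μ y * Vs y := by
        have e5 : ∀ y, μ y * SV y = ∑ i ∈ Finset.range m, μ y * op (P ^ (τ * i)) Vs y := by
          intro y
          show μ y * (∑ i ∈ Finset.range m, op (P ^ (τ * i)) Vs y) = _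
          rw [Finset.mul_sum]
        simp only [e5]
        rw [Finset.sum_comm]
        refine Finset.sum_congr rfl fun i _ => ?_
        exact sum_op (isChain_pow hc (τ * i)) Vs
      have e4 : ∑ y, μ y * Vs y ≤ (τ : ℝ) ^ 2 * W := by
        have := triv_ell hc n fk τ
        refine le_trans (le_of_eq ?_) this
        refine Finset.sum_congr rfl fun y _ => ?_
        show μ y * (∑ w, (P ^ τ) y w * ell n fk y w ^ 2) = _
        rw [Finset.mul_sum]
        refine Finset.sum_congr rfl fun w _ => ?_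
        ring
      rw [e2, e3, Finset.sum_const, Finset.card_range, nsmul_eq_mul]
      exact mul_le_mul_of_nonneg_left e4 (Nat.cast_nonneg m)
    apply cs_bound hc _ _ W _ _ hlb e1 (by positivity)
    have hm : Real.sqrt (m : ℝ) ^ 2 = (m : ℝ) := Real.sq_sqrt (Nat.cast_nonneg m)
    have : (Real.sqrt (m : ℝ) * (τ : ℝ) * W) ^ 2 = Real.sqrt (m : ℝ) ^ 2 * (τ : ℝ) ^ 2 * W ^ 2 := by
      ring
    rw [this, hm]
    apply le_of_eq
    ring
  have h2 : ip μ (lb P n fk) T3 ≤ (ρ : ℝ) * W := by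
    have e1 : ip μ T3 T3 ≤ (ρ : ℝ) ^ 2 * W := by
      have a1 : ip μ T3 T3 ≤ ip μ Bρ Bρ := ip_op_op_le (isChain_pow hc (τ * m)) Bρ
      have a2 : ip μ Bρ Bρ ≤ ∑ a, ∑ b, μ a * (P ^ ρ) a b * ell n fk a b ^ 2 :=
        ip_row_le (isChain_pow hc ρ) (fun a b => ell n fk a b)
      exact a1.trans (a2.trans (triv_ell hc n fk ρ))
    apply cs_bound hc _ _ W _ _ hlb e1 (by positivity)
    apply le_of_eq
    ring
  have hsplit : ∑ j ∈ Finset.range n, ∑ y, (μ y * al P fk j y * (SQ y + T3 y) +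
        μ y * al P fk j y * ∑ i ∈ Finset.range m, op (P ^ (τ * i))
          (fun z => |∑ w, (P ^ τ) z w * Fp fk (j + 1) w - Fp fk (j + 1) z|) y)
      = (ip μ (lb P n fk) SQ + ip μ (lb P n fk) T3)
        + ∑ i ∈ Finset.range m, Rsd μ P n fk (τ * i) τ := by
    rw [← hb, ← hcc, ← Finset.sum_add_distrib]
    refine Finset.sum_congr rfl fun j _ => ?_
    rw [← Finset.sum_add_distrib]
  rw [hsplit] at ha
  nlinarith

/-- **Master theorem**: the two inputs (A) and (R) give the polynomial rate. -/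
theorem master {μ : S → ℝ} {P : Matrix S S ℝ} (hc : IsChain μ P) (n : ℕ) (fk : ℕ → S → ℝ)
    (E : ℕ → ℝ)
    (hA : ∀ t : ℕ, E t ≤ 2 * (t : ℝ) * Wd μ P n fk + 4 * ∑ r ∈ Finset.range t, Qd μ P n fk r)
    (hR : ∀ s τ : ℕ, 1 ≤ τ → 0 ≤ Rsd μ P n fk s τ ∧
      Rsd μ P n fk s τ ^ 4 ≤ 5 * (τ : ℝ) ^ 3 * Wd μ P n fk ^ 4) (t : ℕ) (ht : 1 ≤ t) :
    E t ≤ 22 * (t : ℝ) ^ ((11 : ℝ) / 6) * Wd μ P n fk := by
  set W := Wd μ P n fk with hW
  have hW0 : 0 ≤ W := Wd_nonneg hc n fk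
  set K : ℕ → ℝ := fun τ => Real.sqrt (Real.sqrt ((τ : ℝ) ^ 3)) with hK
  have hK0 : ∀ τ, 0 ≤ K τ := fun τ => Real.sqrt_nonneg _
  have hK4 : ∀ τ : ℕ, K τ ^ 4 = (τ : ℝ) ^ 3 := by
    intro τ
    have e1 : K τ ^ 2 = Real.sqrt ((τ : ℝ) ^ 3) := Real.sq_sqrt (Real.sqrt_nonneg _)
    have e2 : Real.sqrt ((τ : ℝ) ^ 3) ^ 2 = (τ : ℝ) ^ 3 := Real.sq_sqrt (by positivity)
    calc K τ ^ 4 = (K τ ^ 2) ^ 2 := by ring
      _ = (τ : ℝ) ^ 3 := by rw [e1, e2]
  apply final_abs t ht (E t) W hW0 (Qd μ P n fk) K (fun τ => ⟨hK0 τ, (hK4 τ).le⟩) (hA t)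
  intro τ hτ r
  have hr : τ * (r / τ) + r % τ = r := Nat.div_add_mod r τ
  have hq := Qb hc n fk τ (r / τ) (r % τ)
  rw [hr] at hq
  have hρ : ((r % τ : ℕ) : ℝ) ≤ (τ : ℝ) := by
    have : r % τ < τ := Nat.mod_lt _ (by omega)
    exact_mod_cast this.le
  have hRs : ∀ i ∈ Finset.range (r / τ), Rsd μ P n fk (τ * i) τ ≤ (3 / 2) * K τ * W := by
    intro i _
    obtain ⟨r0, r4⟩ := hR (τ * i) τ hτ
    apply le_of_pow_le_pow_left₀ (n := 4) (by norm_num) (by have := hK0 τ; positivity)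
    have : ((3 / 2) * K τ * W) ^ 4 = (81 / 16) * K τ ^ 4 * W ^ 4 := by ring
    rw [this, hK4]
    have hp : 0 ≤ (τ : ℝ) ^ 3 * W ^ 4 := by positivity
    nlinarith
  have hs := Finset.sum_le_card_nsmul (Finset.range (r / τ)) _ _ hRs
  rw [Finset.card_range, nsmul_eq_mul] at hs
  have h3 : ((r % τ : ℕ) : ℝ) * W ≤ (τ : ℝ) * W := mul_le_mul_of_nonneg_right hρ hW0
  nlinarith

end Vale.Agent.P125.P57
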