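import Vale.Agent.P125.P57.Api
import Vale.Agent.P125.P57.NoMart
import Vale.Agent.P125.BV.Top

set_option linter.unusedSectionVars false
set_option linter.unusedVariables false

/-!
# P125, polynomial rate: from the block lemma to the bound on `Q`
-/

namespace Vale.Agent.P125.P57

open scoped BigOperators
open Vale.Agent.P125.Dich

variable {S : Type} [Fintype S] [DecidableEq S]

def Fp (fk : ℕ → S → ℝ) (k : ℕ) (x : S) : ℝ := ∑ i ∈ Finset.range k, fk i x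

def ell (n : ℕ) (fk : ℕ → S → ℝ) (a b : S) : ℝ := ∑ j ∈ Finset.range n, |fk j b - fk j a|

def Wd (μ : S → ℝ) (P : Matrix S S ℝ) (n : ℕ) (fk : ℕ → S → ℝ) : ℝ :=
  ∑ a, ∑ b, μ a * P a b * ell n fk a b ^ 2

def al (P : Matrix S S ℝ) (fk : ℕ → S → ℝ) (j : ℕ) (y : S) : ℝ :=
  ∑ b, P y b * |fk j b - fk j y|

def Qd (μ : S → ℝ) (P : Matrix S S ℝ) (n : ℕ) (fk : ℕ → S → ℝ) (r : ℕ) : ℝ :=
  ∑ j ∈ Finset.range n, ∑ y, μ y * al P fk j y *
    ∑ z, (P ^ r) y z * |Fp fk (j + 1) z - Fp fk (j + 1) y|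

def Rsd (μ : S → ℝ) (P : Matrix S S ℝ) (n : ℕ) (fk : ℕ → S → ℝ) (s τ : ℕ) : ℝ :=
  ∑ j ∈ Finset.range n, ∑ y, μ y * al P fk j y *
    ∑ z, (P ^ s) y z * |∑ w, (P ^ τ) z w * Fp fk (j + 1) w - Fp fk (j + 1) z|

def lb (P : Matrix S S ℝ) (n : ℕ) (fk : ℕ → S → ℝ) (y : S) : ℝ := ∑ b, P y b * ell n fk y b

lemma ell_nonneg (n : ℕ) (fk : ℕ → S → ℝ) (a b : S) : 0 ≤ ell n fk a b :=
  Finset.sum_nonneg fun j _ => abs_nonneg _

lemma abs_Fp_le (n : ℕ) (fk : ℕ → S → ℝ) (j : ℕ) (hj : j + 1 ≤ n) (a b : S) :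
    |Fp fk (j + 1) b - Fp fk (j + 1) a| ≤ ell n fk a b := by
  unfold Fp ell
  rw [← Finset.sum_sub_distrib]
  refine (Finset.abs_sum_le_sum_abs _ _).trans ?_
  apply Finset.sum_le_sum_of_subset_of_nonneg
  · intro i hi
    rw [Finset.mem_range] at hi ⊢
    omega
  · intro i _ _
    exact abs_nonneg _

lemma triv_ell {μ : S → ℝ} {P : Matrix S S ℝ} (hc : IsChain μ P) (n : ℕ) (fk : ℕ → S → ℝ)
    (r : ℕ) : ∑ a, ∑ b, μ a * (P ^ r) a b * ell n fk a b ^ 2 ≤ (r : ℝ) ^ 2 * Wd μ P n fk := by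
  have key := Vale.Agent.P125.BV.n1_triv r μ P hc (fun s => fun i : Fin n => fk i s)
  have e : ∀ a b : S, Vale.Agent.P125.BV.n1
      ((fun s => fun i : Fin n => fk i s) b - (fun s => fun i : Fin n => fk i s) a)
      = ell n fk a b := by
    intro a b
    unfold Vale.Agent.P125.BV.n1 ell
    rw [Finset.sum_range]
    rfl
  simp only [e] at key
  exact key

lemma sum_al (P : Matrix S S ℝ) (n : ℕ) (fk : ℕ → S → ℝ) (y : S) :
    ∑ j ∈ Finset.range n, al P fk j y = lb P n fk y := by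
  unfold al lb ell
  rw [Finset.sum_comm]
  refine Finset.sum_congr rfl fun b _ => ?_
  rw [Finset.mul_sum]

lemma al_nonneg {μ : S → ℝ} {P : Matrix S S ℝ} (hc : IsChain μ P) (fk : ℕ → S → ℝ) (j : ℕ)
    (y : S) : 0 ≤ al P fk j y :=
  Finset.sum_nonneg fun b _ => mul_nonneg (hc.2.2.1 y b) (abs_nonneg _)

lemma lb_nonneg {μ : S → ℝ} {P : Matrix S S ℝ} (hc : IsChain μ P) (n : ℕ) (fk : ℕ → S → ℝ)
    (y : S) : 0 ≤ lb P n fk y :=
  Finset.sum_nonneg fun b _ => mul_nonneg (hc.2.2.1 y b) (ell_nonneg n fk y b)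

/-- Jensen for a kernel row and a function of both variables -/
lemma row_sq_le {μ : S → ℝ} {P : Matrix S S ℝ} (hc : IsChain μ P) (G : S → S → ℝ) (y : S) :
    (∑ b, P y b * G y b) ^ 2 ≤ ∑ b, P y b * G y b ^ 2 :=
  op_sq_le hc (fun b => G y b) y

lemma ip_row_le {μ : S → ℝ} {P : Matrix S S ℝ} (hc : IsChain μ P) (G : S → S → ℝ) :
    ip μ (fun y => ∑ b, P y b * G y b) (fun y => ∑ b, P y b * G y b) ≤
      ∑ a, ∑ b, μ a * P a b * G a b ^ 2 := by
  unfold ip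
  refine Finset.sum_le_sum fun y _ => ?_
  have h := mul_le_mul_of_nonneg_left (row_sq_le hc G y) (hc.1 y)
  rw [Finset.mul_sum] at h
  calc μ y * (∑ b, P y b * G y b) * (∑ b, P y b * G y b)
      = μ y * (∑ b, P y b * G y b) ^ 2 := by ring
    _ ≤ ∑ b, μ y * (P y b * G y b ^ 2) := h
    _ = ∑ b, μ y * P y b * G y b ^ 2 := Finset.sum_congr rfl fun b _ => by ring

lemma ip_lb_le {μ : S → ℝ} {P : Matrix S S ℝ} (hc : IsChain μ P) (n : ℕ) (fk : ℕ → S → ℝ) :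
    ip μ (lb P n fk) (lb P n fk) ≤ Wd μ P n fk :=
  ip_row_le hc (fun a b => ell n fk a b)

lemma Wd_nonneg {μ : S → ℝ} {P : Matrix S S ℝ} (hc : IsChain μ P) (n : ℕ) (fk : ℕ → S → ℝ) :
    0 ≤ Wd μ P n fk :=
  Finset.sum_nonneg fun a _ => Finset.sum_nonneg fun b _ =>
    mul_nonneg (mul_nonneg (hc.1 a) (hc.2.2.1 a b)) (sq_nonneg _)

/-- the pointwise estimate -/
lemma point {μ : S → ℝ} {P : Matrix S S ℝ} (hc : IsChain μ P) (n : ℕ) (fk : ℕ → S → ℝ)
    (τ m ρ j : ℕ) (hj : j + 1 ≤ n) (y : S) :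
    ∑ z, (P ^ (τ * m + ρ)) y z * |Fp fk (j + 1) z - Fp fk (j + 1) y| ≤
      Real.sqrt (∑ i ∈ Finset.range m, op (P ^ (τ * i))
          (fun z => ∑ w, (P ^ τ) z w * ell n fk z w ^ 2) y)
        + ∑ i ∈ Finset.range m, op (P ^ (τ * i))
          (fun z => |∑ w, (P ^ τ) z w * Fp fk (j + 1) w - Fp fk (j + 1) z|) y
        + op (P ^ (τ * m)) (fun w => ∑ z, (P ^ ρ) w z * ell n fk w z) y := by
  set F := Fp fk (j + 1) with hF
  have hcR := isChain_pow hc τ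
  have hcm := isChain_pow hc (τ * m)
  have hcρ := isChain_pow hc ρ
  -- split off the remainder
  have h1 : ∑ z, (P ^ (τ * m + ρ)) y z * |F z - F y| =
      op (P ^ (τ * m)) (op (P ^ ρ) (fun z => |F z - F y|)) y := by
    rw [← op_pow_add]
    rfl
  have h2 : ∀ w, op (P ^ ρ) (fun z => |F z - F y|) w ≤
      (∑ z, (P ^ ρ) w z * ell n fk w z) + |F w - F y| := by
    intro w
    have e1 : op (P ^ ρ) (fun z => |F z - F y|) w ≤
        op (P ^ ρ) (fun z => ell n fk w z + |F w - F y|) w := by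
      apply op_mono hcρ
      intro z
      have t1 : |F z - F y| ≤ |F z - F w| + |F w - F y| := by
        have : F z - F y = (F z - F w) + (F w - F y) := by ring
        rw [this]
        exact abs_add_le _ _
      have t2 := abs_Fp_le n fk j hj w z
      linarith
    rw [op_add, op_const hcρ] at e1
    exact e1
  have h3 : op (P ^ (τ * m)) (op (P ^ ρ) (fun z => |F z - F y|)) y ≤
      op (P ^ (τ * m)) (fun w => ∑ z, (P ^ ρ) w z * ell n fk w z) y
        + op (P ^ (τ * m)) (fun w => |F w - F y|) y := by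
    rw [← op_add]
    exact op_mono hcm h2 y
  -- the block lemma
  have h4 := no_mart (P ^ τ) hcR.2.2.1 hcR.2.2.2.1 F (F y) m y
  simp only [← pow_mul, sub_self] at h4
  have h5 : Real.sqrt ((0 : ℝ) ^ 2 + ∑ i ∈ Finset.range m,
      ∑ z, (P ^ (τ * i)) y z * (∑ w, (P ^ τ) z w * (F w - F z) ^ 2)) ≤
      Real.sqrt (∑ i ∈ Finset.range m, op (P ^ (τ * i))
          (fun z => ∑ w, (P ^ τ) z w * ell n fk z w ^ 2) y) := by
    apply Real.sqrt_le_sqrt
    rw [zero_pow (by norm_num), zero_add]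
    refine Finset.sum_le_sum fun i _ => ?_
    apply op_mono (isChain_pow hc (τ * i))
    intro z
    refine Finset.sum_le_sum fun w _ => ?_
    apply mul_le_mul_of_nonneg_left _ (hcR.2.2.1 z w)
    have t2 := abs_Fp_le n fk j hj z w
    rw [← sq_abs (F w - F z)]
    exact pow_le_pow_left₀ (abs_nonneg _) t2 2
  have h6 : op (P ^ (τ * m)) (fun w => |F w - F y|) y = ∑ z, (P ^ (τ * m)) y z * |F z - F y| := rfl
  rw [h1]
  rw [h6] at h3
  have h7 : ∑ i ∈ Finset.range m, op (P ^ (τ * i))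
      (fun z => |∑ w, (P ^ τ) z w * F w - F z|) y =
      ∑ i ∈ Finset.range m, ∑ z, (P ^ (τ * i)) y z * |∑ w, (P ^ τ) z w * F w - F z| := rfl
  rw [h7]
  linarith

end Vale.Agent.P125.P57
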